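import Vale.Agent.P045.Blowup

theorem Vale.Agent.Results.P045.Counterexample.result (c r : ℕ) (hr : r = 21 * 5 ^ (c + 9)) :
    ∃ (V : Type) (_ : Finite V) (part : V → Fin r) (H : Finset (Finset V)),
      (∀ e ∈ H, ∀ i : Fin r, ∃! v, v ∈ e ∧ part v = i) ∧
      H.Nonempty ∧ (∀ e ∈ H, ∀ f ∈ H, ∃ v, v ∈ e ∧ v ∈ f) ∧
      ∀ C : Finset V, (∀ e ∈ H, ∃ v ∈ e, v ∈ C) → r ≤ C.card := by
  subst hr
  obtain ⟨V, hV, part, H, h1, h2, h3, h4⟩ := Vale.Agent.P045.exists_counterexample c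
  exact ⟨V, hV, part, H, h2, h1, h3, h4⟩
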